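import Vale.Agent.P062W.Start
import Vale.Agent.P062.Run

/-!
# From the two-cell pattern to the whole game
-/

open Finset

namespace Vale.Agent.P062W

open Vale.Agent.P062

/-- The four unit steps. -/
def steps : Finset Cell := {(1, 0), (-1, 0), (0, 1), (0, -1)}

/-- The claim `m` answers `e` when Maker owns `o`. -/
theorem wins_of_pattern {v : ℕ} (hv : PatOK v) {o m e : Cell} (hM : cs 0 v ⊆ insert m {o})
    (hmo : m ≠ o) (hoe : o ≠ e) (hme : m ≠ e) (he : e ∉ cs 1 v) : ∃ K, WinsIn K {o} {e} := by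
  have h2 : ∃ K, (HasCopy (cs 0 v) ∨ ∃ Cq, Cq ⊆ insert m (cs 1 v) ∧ Good K (cs 0 v) Cq) := by
    rcases hv with hv | ⟨K, hv⟩
    · exact ⟨0, Or.inl hv⟩
    · exact ⟨K, Or.inr ⟨cs 1 v, subset_insert _ _, hv⟩⟩
  obtain ⟨K, h2⟩ := h2
  refine ⟨K + 1, play (r := (m, cs 0 v, insert m (cs 1 v))) (mem_insert_self _ _) h2 hM ?_ ?_ ?_⟩
  · simpa using hmo
  · rw [disjoint_singleton]
    exact hoe
  · rw [disjoint_singleton_right, mem_insert, not_or]
    exact ⟨hme.symm, he⟩

theorem step_one {K : ℕ} {o e : Cell} (h : WinsIn K {o} {e}) (hd : e - o ∈ steps) :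
    WinsIn K {((0 : ℤ), (0 : ℤ))} {((1 : ℤ), (0 : ℤ))} := by
  obtain ⟨x, y⟩ := o
  obtain ⟨z, w⟩ := e
  simp only [steps, Prod.mk_sub_mk, mem_insert, Prod.mk.injEq, mem_singleton] at hd
  rcases hd with ⟨h1, h2⟩ | ⟨h1, h2⟩ | ⟨h1, h2⟩ | ⟨h1, h2⟩
  · have := h.image (isSymm_translate (-x) (-y))
    simp only [image_singleton] at this
    convert this using 3 <;> (try simp) <;> omega
  · have := h.image ((isSymm_translate x (-y)).comp isSymm_neg_fst)
    simp only [image_singleton, Function.comp] at this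
    convert this using 3 <;> (try simp) <;> omega
  · have := h.image ((isSymm_translate (-y) (-x)).comp isSymm_swap)
    simp only [image_singleton, Function.comp] at this
    convert this using 3 <;> (try simp) <;> omega
  · have := h.image ((isSymm_translate y (-x)).comp (isSymm_neg_fst.comp isSymm_swap))
    simp only [image_singleton, Function.comp] at this
    convert this using 3 <;> (try simp) <;> omega

theorem step_two {K : ℕ} (h : WinsIn K {((0 : ℤ), (0 : ℤ))} {((1 : ℤ), (0 : ℤ))}) {b : Cell}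
    (hb : b - ((8 : ℤ), (8 : ℤ)) ∈ steps) : WinsIn K {((8 : ℤ), (8 : ℤ))} {b} := by
  obtain ⟨x, y⟩ := b
  simp only [steps, Prod.mk_sub_mk, mem_insert, Prod.mk.injEq, mem_singleton] at hb
  rcases hb with ⟨h1, h2⟩ | ⟨h1, h2⟩ | ⟨h1, h2⟩ | ⟨h1, h2⟩
  · have := h.image (isSymm_translate 8 8)
    simp only [image_singleton] at this
    convert this using 3 <;> (try simp) <;> omega
  · have := h.image ((isSymm_translate 8 8).comp isSymm_neg_fst)
    simp only [image_singleton, Function.comp] at this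
    convert this using 3 <;> (try simp) <;> omega
  · have := h.image ((isSymm_translate 8 8).comp isSymm_swap)
    simp only [image_singleton, Function.comp] at this
    convert this using 3 <;> (try simp) <;> omega
  · have := h.image ((isSymm_translate 8 8).comp (isSymm_neg_snd.comp isSymm_swap))
    simp only [image_singleton, Function.comp] at this
    convert this using 3 <;> (try simp) <;> omega

theorem maskA_char : ∀ y < 16, ∀ x < 16, (!(maskA.testBit (P062.ix 0 x y)) ||
    ((Nat.beq x 9 && Nat.beq y 8) || (Nat.beq x 7 && Nat.beq y 8) ||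
      (Nat.beq x 8 && Nat.beq y 9) || (Nat.beq x 8 && Nat.beq y 7))) = true := by
  decide +kernel

theorem notMem {b : Cell} (hb : b - ((8 : ℤ), (8 : ℤ)) ∉ steps) : b ∉ P062.cs 0 maskA := by
  intro h
  obtain ⟨p, hp, rfl⟩ := P062.mem_cs.1 h
  apply hb
  have hk := maskA_char _ hp.2.2 _ hp.2.1
  rw [hp.1] at hk
  simp only [Bool.not_true, Bool.false_or, Bool.or_eq_true, Bool.and_eq_true,
    Nat.beq_eq] at hk
  rcases hk with ((h | h) | h) | h <;> simp [steps, P062.cel, h.1, h.2]

theorem everywhere {K : ℕ} {o e : Cell} (h : WinsIn K {o} {e}) (hd : e - o ∈ steps) :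
    ∃ K, ∀ b : Cell, b ≠ (8, 8) → WinsIn K {(8, 8)} {b} := by
  obtain ⟨L, hL⟩ := exists_wins
  refine ⟨max K L, fun b hb => ?_⟩
  by_cases hs : b - ((8 : ℤ), (8 : ℤ)) ∈ steps
  · exact (step_two (step_one h hd) hs).le (le_max_left _ _)
  · exact (hL b hb (notMem hs)).le (le_max_right _ _)

theorem final {K : ℕ} {o e : Cell} (h : WinsIn K {o} {e}) (hd : e - o ∈ steps) :
    ∃ (σ : List Cell → Cell) (N : ℕ), ∀ b : ℕ → Cell, BreakerLegal σ b →
      ∃ n ≤ N, MakerOwnsCopy σ b n := by
  obtain ⟨K, hK⟩ := everywhere h hd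
  exact ⟨strat (8, 8) K, K, fun b hb =>
    strategy_of_winsIn (m₀ := (8, 8)) (R := fun _ => True) (fun b h1 _ => hK b h1) b hb trivial⟩

end Vale.Agent.P062W
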