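import Vale.Agent.P062W.Final
import Vale.Agent.P062W.PartD

/-!
# The two-cell pattern: Maker owns `(8, 8)` and `(7, 6)`, and `(9, 8)` is outside the carrier
-/

open Finset

namespace Vale.Agent.P062W

open Vale.Agent.P062

theorem root_char : ∀ y < 32, ∀ x < 32, (!(pat17688.testBit (ix 0 x y)) ||
    ((Nat.beq x 7 && Nat.beq y 6) || (Nat.beq x 8 && Nat.beq y 8))) = true := by
  decide +kernel

theorem root_sub : cs 0 pat17688 ⊆ insert ((7 : ℤ), (6 : ℤ)) {((8 : ℤ), (8 : ℤ))} := by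
  intro c h
  obtain ⟨p, hp, rfl⟩ := mem_cs.1 h
  have hk := root_char _ hp.2.2 _ hp.2.1
  rw [hp.1] at hk
  simp only [Bool.not_true, Bool.false_or, Bool.or_eq_true, Bool.and_eq_true,
    Nat.beq_eq] at hk
  rcases hk with h | h <;> simp [cel, h.1, h.2]

theorem root_notMem : ((9 : ℤ), (8 : ℤ)) ∉ cs 1 pat17688 := by
  have e : cel (9, 8) = ((9 : ℤ), (8 : ℤ)) := by simp [cel]
  rw [← e, cel_mem_cs]
  intro h
  exact absurd h.1 (by decide +kernel)

theorem root_wins : ∃ K, WinsIn K {((8 : ℤ), (8 : ℤ))} {((9 : ℤ), (8 : ℤ))} :=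
  wins_of_pattern pat17688_ok root_sub (by decide) (by decide) (by decide) root_notMem

end Vale.Agent.P062W
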