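import Mathlib
import Vale.Agent.P062.Good
import Vale.Agent.P062W.Checker

/-!
# Soundness of the checker
-/

open Finset

namespace Vale.Agent.P062W

open Vale.Agent.P062

theorem strict_eq {α : Type} (n : ℕ) (f : ℕ → α) : strict n f = f n := by
  cases n <;> rfl

/-! ### Trees -/

/-- All labels satisfy `P`. -/
def Tr.All (P : ℕ → Prop) : Tr → Prop
  | .leaf => True
  | .node v l r => P v ∧ l.All P ∧ r.All P

theorem Tr.get_node (v : ℕ) (l r : Tr) (i : ℕ) : Tr.get (.node v l r) i =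
    cond (Nat.beq i 0) v (cond (Nat.beq (Nat.mod i 2) 1) (l.get (Nat.div (Nat.sub i 1) 2))
      (r.get (Nat.div (Nat.sub i 1) 2))) := rfl

theorem Tr.get_all {P : ℕ → Prop} {t : Tr} (h : t.All P) (i : ℕ) :
    t.get i = 0 ∨ P (t.get i) := by
  induction t generalizing i with
  | leaf => exact Or.inl rfl
  | node v l r ihl ihr =>
    rw [Tr.get_node]
    obtain ⟨hv, hl, hr⟩ := h
    cases Nat.beq i 0 with
    | true => exact Or.inr hv
    | false =>
      cases Nat.beq (Nat.mod i 2) 1 with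
      | true => exact ihl hl _
      | false => exact ihr hr _

theorem Tr.ins_node (u : ℕ) (l r : Tr) (i v : ℕ) (k : Tr → Bool) : Tr.ins (.node u l r) i v k =
    cond (Nat.beq i 0) (k (Tr.node v l r))
      (cond (Nat.beq (Nat.mod i 2) 1)
        (l.ins (Nat.div (Nat.sub i 1) 2) v (fun l' => k (Tr.node u l' r)))
        (r.ins (Nat.div (Nat.sub i 1) 2) v (fun r' => k (Tr.node u l r')))) := rfl

theorem Tr.ins_sound {P : ℕ → Prop} {t : Tr} (h : t.All P) {v : ℕ} (hv : P v) {i : ℕ}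
    {k : Tr → Bool} (hk : t.ins i v k = true) : ∃ t', t'.All P ∧ k t' = true := by
  induction t generalizing i k with
  | leaf => exact ⟨.node v .leaf .leaf, ⟨hv, trivial, trivial⟩, hk⟩
  | node u l r ihl ihr =>
    rw [Tr.ins_node] at hk
    obtain ⟨hu, hl, hr⟩ := h
    cases h0 : Nat.beq i 0 with
    | true =>
      rw [h0] at hk
      exact ⟨.node v l r, ⟨hv, hl, hr⟩, hk⟩
    | false =>
      rw [h0] at hk
      cases h1 : Nat.beq (Nat.mod i 2) 1 with
      | true =>
        rw [h1] at hk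
        obtain ⟨l', hl', hk'⟩ := ihl hl hk
        exact ⟨.node u l' r, ⟨hu, hl', hr⟩, hk'⟩
      | false =>
        rw [h1] at hk
        obtain ⟨r', hr', hk'⟩ := ihr hr hk
        exact ⟨.node u l r', ⟨hu, hl, hr'⟩, hk'⟩

/-! ### Bits -/

theorem tb_lor (a b i : ℕ) : (Nat.lor a b).testBit i = (a.testBit i || b.testBit i) :=
  Nat.testBit_or a b i

theorem tb_land (a b i : ℕ) : (Nat.land a b).testBit i = (a.testBit i && b.testBit i) :=
  Nat.testBit_and a b i

theorem tb_xor (a b i : ℕ) : (Nat.xor a b).testBit i = (a.testBit i ^^ b.testBit i) :=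
  Nat.testBit_xor a b i

theorem tb_shl (a s i : ℕ) : (Nat.shiftLeft a s).testBit i = (decide (s ≤ i) && a.testBit (i - s)) :=
  Nat.testBit_shiftLeft a

theorem tb_shr (a s i : ℕ) : (Nat.shiftRight a s).testBit i = a.testBit (s + i) :=
  Nat.testBit_shiftRight a

/-- Where a delta swap sends bit `i`. -/
def tau (A B s i : ℕ) : ℕ := bif A.testBit i then i else bif B.testBit i then i + s else i - s

/-- Bit `i` is not lost. -/
def val (A B s i : ℕ) : Bool := A.testBit i || (B.testBit i || (Nat.ble s i && B.testBit (i - s)))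

theorem dstep_spec {A B s n i : ℕ} (h : n.testBit i = true) (hv : val A B s i = true) :
    (dstep A B s n).testBit (tau A B s i) = true := by
  unfold tau
  rw [tb_lor, tb_lor, tb_land, tb_land, tb_shl, tb_shr, tb_land]
  cases hA : A.testBit i with
  | true => simp [hA, h]
  | false =>
    cases hB : B.testBit i with
    | true => simp [hB, h]
    | false =>
      simp only [val, hA, hB, Bool.false_or, Bool.and_eq_true] at hv
      obtain ⟨h1, h2⟩ := hv
      have h1 : s ≤ i := Nat.le_of_ble_eq_true h1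
      simp only [cond_false]
      rw [Nat.add_sub_of_le h1, h, h2]
      simp

/-- Track a bit through five delta swaps. -/
def run5 (A4 B4 s4 A3 B3 s3 A2 B2 s2 A1 B1 s1 A0 B0 s0 i target : ℕ) : Bool :=
  val A4 B4 s4 i && (val A3 B3 s3 (tau A4 B4 s4 i) &&
    (val A2 B2 s2 (tau A3 B3 s3 (tau A4 B4 s4 i)) &&
      (val A1 B1 s1 (tau A2 B2 s2 (tau A3 B3 s3 (tau A4 B4 s4 i))) &&
        (val A0 B0 s0 (tau A1 B1 s1 (tau A2 B2 s2 (tau A3 B3 s3 (tau A4 B4 s4 i)))) &&
          Nat.beq (tau A0 B0 s0 (tau A1 B1 s1 (tau A2 B2 s2 (tau A3 B3 s3 (tau A4 B4 s4 i)))))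
            target))))

theorem run5_sound {A4 B4 s4 A3 B3 s3 A2 B2 s2 A1 B1 s1 A0 B0 s0 i target n : ℕ}
    (h : run5 A4 B4 s4 A3 B3 s3 A2 B2 s2 A1 B1 s1 A0 B0 s0 i target = true)
    (hn : n.testBit i = true) :
    (dstep A0 B0 s0 (dstep A1 B1 s1 (dstep A2 B2 s2 (dstep A3 B3 s3
      (dstep A4 B4 s4 n))))).testBit target = true := by
  simp only [run5, Bool.and_eq_true] at h
  obtain ⟨h4, h3, h2, h1, h0, ht⟩ := h
  rw [← Nat.eq_of_beq_eq_true ht]
  exact dstep_spec (dstep_spec (dstep_spec (dstep_spec (dstep_spec hn h4) h3) h2) h1) h0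

/-- The bit of the cell `(x, y)` in the half `h`. -/
def ix (h x y : ℕ) : ℕ := 2144 + 2048 * h + 64 * y + x

theorem flipX_key : ∀ h < 2, ∀ y < 32, ∀ x < 32,
    run5 AX4 BX4 16 AX3 BX3 8 AX2 BX2 4 AX1 BX1 2 AX0 BX0 1 (ix h x y) (ix h (31 - x) y) =
      true := by
  decide +kernel

theorem flipY_key : ∀ h < 2, ∀ y < 32, ∀ x < 32,
    run5 AY4 BY4 1024 AY3 BY3 512 AY2 BY2 256 AY1 BY1 128 AY0 BY0 64 (ix h x y)
      (ix h x (31 - y)) = true := by
  decide +kernel

theorem transp_key : ∀ h < 2, ∀ y < 32, ∀ x < 32,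
    run5 AT4 BT4 1008 AT3 BT3 504 AT2 BT2 252 AT1 BT1 126 AT0 BT0 63 (ix h x y) (ix h y x) =
      true := by
  decide +kernel

theorem flipX_spec {n h x y : ℕ} (hh : h < 2) (hx : x < 32) (hy : y < 32)
    (hn : n.testBit (ix h x y) = true) : (flipX n).testBit (ix h (31 - x) y) = true := by
  unfold flipX
  rw [strict_eq, strict_eq, strict_eq, strict_eq]
  exact run5_sound (flipX_key h hh y hy x hx) hn

theorem flipY_spec {n h x y : ℕ} (hh : h < 2) (hx : x < 32) (hy : y < 32)
    (hn : n.testBit (ix h x y) = true) : (flipY n).testBit (ix h x (31 - y)) = true := by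
  unfold flipY
  rw [strict_eq, strict_eq, strict_eq, strict_eq]
  exact run5_sound (flipY_key h hh y hy x hx) hn

theorem transp_spec {n h x y : ℕ} (hh : h < 2) (hx : x < 32) (hy : y < 32)
    (hn : n.testBit (ix h x y) = true) : (transp n).testBit (ix h y x) = true := by
  unfold transp
  rw [strict_eq, strict_eq, strict_eq, strict_eq]
  exact run5_sound (transp_key h hh y hy x hx) hn

/-! ### Orientations -/

/-- Conditional transposition. -/
def swN (b : Bool) (p : ℕ × ℕ) : ℕ × ℕ := cond b p (p.2, p.1)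

/-- Conditional reflection. -/
def fxN (b : Bool) (p : ℕ × ℕ) : ℕ × ℕ := cond b p (31 - p.1, p.2)

/-- Conditional reflection. -/
def fyN (b : Bool) (p : ℕ × ℕ) : ℕ × ℕ := cond b p (p.1, 31 - p.2)

/-- The action of an orientation on the box. -/
def oc (g : ℕ) (p : ℕ × ℕ) : ℕ × ℕ :=
  fyN (Nat.beq (Nat.land g 2) 0) (fxN (Nat.beq (Nat.land g 1) 0) (swN (Nat.beq (Nat.land g 4) 0) p))

/-- Bit of a pair, and the pair is in the box. -/
def Has (n h : ℕ) (p : ℕ × ℕ) : Prop := n.testBit (ix h p.1 p.2) = true ∧ p.1 < 32 ∧ p.2 < 32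

theorem orient_spec {g n h : ℕ} {p : ℕ × ℕ} (hh : h < 2) (hp : Has n h p) :
    Has (orient g n) h (oc g p) := by
  unfold orient oc
  rw [strict_eq, strict_eq]
  have h1 : Has (cond (Nat.beq (Nat.land g 4) 0) n (transp n)) h
      (swN (Nat.beq (Nat.land g 4) 0) p) := by
    cases Nat.beq (Nat.land g 4) 0 with
    | true => exact hp
    | false => exact ⟨transp_spec hh hp.2.1 hp.2.2 hp.1, hp.2.2, hp.2.1⟩
  generalize cond (Nat.beq (Nat.land g 4) 0) n (transp n) = n1 at h1 ⊢
  generalize swN (Nat.beq (Nat.land g 4) 0) p = p1 at h1 ⊢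
  have h2 : Has (cond (Nat.beq (Nat.land g 1) 0) n1 (flipX n1)) h
      (fxN (Nat.beq (Nat.land g 1) 0) p1) := by
    cases Nat.beq (Nat.land g 1) 0 with
    | true => exact h1
    | false =>
      exact ⟨flipX_spec hh h1.2.1 h1.2.2 h1.1, by simp only [fxN, cond_false]; omega, h1.2.2⟩
  generalize cond (Nat.beq (Nat.land g 1) 0) n1 (flipX n1) = n2 at h2 ⊢
  generalize fxN (Nat.beq (Nat.land g 1) 0) p1 = p2 at h2 ⊢
  cases Nat.beq (Nat.land g 2) 0 with
  | true => exact h2
  | false =>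
    exact ⟨flipY_spec hh h2.2.1 h2.2.2 h2.1, h2.2.1, by simp only [fyN, cond_false]; omega⟩

/-- The cell of a pair. -/
def cel (p : ℕ × ℕ) : Cell := ((p.1 : ℤ), (p.2 : ℤ))

/-- Conditional transposition. -/
def swZ (b : Bool) : Cell → Cell := cond b id (fun c => (c.2, c.1))

/-- Conditional reflection. -/
def fxZ (b : Bool) : Cell → Cell := cond b id ((fun c => (c.1 + 31, c.2 + 0)) ∘ fun c => (-c.1, c.2))

/-- Conditional reflection. -/
def fyZ (b : Bool) : Cell → Cell := cond b id ((fun c => (c.1 + 0, c.2 + 31)) ∘ fun c => (c.1, -c.2))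

/-- The isometry with codes `g` and `a`. -/
def TT (g a : ℕ) : Cell → Cell :=
  (fun c => (c.1 + (((a % 64 : ℕ) : ℤ) - 32), c.2 + (((a / 64 : ℕ) : ℤ) - 32))) ∘
    (fyZ (Nat.beq (Nat.land g 2) 0) ∘
      (fxZ (Nat.beq (Nat.land g 1) 0) ∘ swZ (Nat.beq (Nat.land g 4) 0)))

theorem isSymm_TT (g a : ℕ) : IsSymm (TT g a) := by
  refine (isSymm_translate _ _).comp (IsSymm.comp ?_ (IsSymm.comp ?_ ?_))
  · unfold fyZ
    cases Nat.beq (Nat.land g 2) 0 with
    | true => exact isSymm_id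
    | false => exact (isSymm_translate 0 31).comp isSymm_neg_snd
  · unfold fxZ
    cases Nat.beq (Nat.land g 1) 0 with
    | true => exact isSymm_id
    | false => exact (isSymm_translate 31 0).comp isSymm_neg_fst
  · unfold swZ
    cases Nat.beq (Nat.land g 4) 0 with
    | true => exact isSymm_id
    | false => exact isSymm_swap

theorem swZ_cel (b : Bool) (p : ℕ × ℕ) : swZ b (cel p) = cel (swN b p) := by
  cases b <;> rfl

theorem fxZ_cel (b : Bool) {p : ℕ × ℕ} (hp : p.1 < 32) : fxZ b (cel p) = cel (fxN b p) := by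
  cases b with
  | true => rfl
  | false =>
    simp only [fxZ, fxN, cel, cond_false, Function.comp, Prod.mk.injEq]
    constructor <;> omega

theorem fyZ_cel (b : Bool) {p : ℕ × ℕ} (hp : p.2 < 32) : fyZ b (cel p) = cel (fyN b p) := by
  cases b with
  | true => rfl
  | false =>
    simp only [fyZ, fyN, cel, cond_false, Function.comp, Prod.mk.injEq]
    constructor <;> omega

theorem TT_cel (g a : ℕ) {p : ℕ × ℕ} (h1 : p.1 < 32) (h2 : p.2 < 32) : TT g a (cel p) =
    ((cel (oc g p)).1 + (((a % 64 : ℕ) : ℤ) - 32), (cel (oc g p)).2 + (((a / 64 : ℕ) : ℤ) - 32)) := by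
  have e1 := swZ_cel (Nat.beq (Nat.land g 4) 0) p
  have l1 : (swN (Nat.beq (Nat.land g 4) 0) p).1 < 32 ∧ (swN (Nat.beq (Nat.land g 4) 0) p).2 < 32 := by
    cases Nat.beq (Nat.land g 4) 0 with
    | true => exact ⟨h1, h2⟩
    | false => exact ⟨h2, h1⟩
  have e2 := fxZ_cel (Nat.beq (Nat.land g 1) 0) l1.1
  have l2 : (fxN (Nat.beq (Nat.land g 1) 0) (swN (Nat.beq (Nat.land g 4) 0) p)).2 < 32 := by
    cases Nat.beq (Nat.land g 1) 0 with
    | true => exact l1.2
    | false => exact l1.2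
  have e3 := fyZ_cel (Nat.beq (Nat.land g 2) 0) l2
  simp only [TT, Function.comp, e1, e2, e3, oc]

/-! ### Sets of cells -/

/-- The cells of the half `h` of `v`. -/
def cs (h v : ℕ) : Finset Cell :=
  ((Finset.range 32 ×ˢ Finset.range 32).filter fun p => v.testBit (ix h p.1 p.2) = true).image cel

theorem mem_cs {h v : ℕ} {c : Cell} : c ∈ cs h v ↔ ∃ p : ℕ × ℕ, Has v h p ∧ cel p = c := by
  unfold cs Has
  simp only [mem_image, mem_filter, mem_product, mem_range]
  constructor
  · rintro ⟨p, ⟨⟨h1, h2⟩, h3⟩, rfl⟩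
    exact ⟨p, ⟨h3, h1, h2⟩, rfl⟩
  · rintro ⟨p, ⟨h3, h1, h2⟩, rfl⟩
    exact ⟨p, ⟨⟨h1, h2⟩, h3⟩, rfl⟩

theorem cel_inj {p q : ℕ × ℕ} (h : cel p = cel q) : p = q := by
  simp only [cel, Prod.mk.injEq, Nat.cast_inj] at h
  exact Prod.ext h.1 h.2

theorem cel_mem_cs {h v : ℕ} {p : ℕ × ℕ} : cel p ∈ cs h v ↔ Has v h p := by
  rw [mem_cs]
  constructor
  · rintro ⟨q, hq, e⟩
    rwa [← cel_inj e]
  · exact fun h => ⟨p, h, rfl⟩

theorem full_key' : ∀ a < 66, ∀ b < 64, FULL.testBit (64 * a + b) = true →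
    2144 ≤ 64 * a + b ∧ (64 * a + b - 2144) % 64 < 32 ∧ (64 * a + b - 2144) / 64 < 32 := by
  decide +kernel

theorem full_key (j : ℕ) (hj : j < 4192) (h : FULL.testBit j = true) :
    2144 ≤ j ∧ (j - 2144) % 64 < 32 ∧ (j - 2144) / 64 < 32 := by
  have e : 64 * (j / 64) + j % 64 = j := Nat.div_add_mod j 64
  have := full_key' (j / 64) (by omega) (j % 64) (by omega)
  rw [e] at this
  exact this h

set_option exponentiation.threshold 5000 in
theorem full_lt : FULL < 2 ^ 4192 := by decide +kernel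

set_option exponentiation.threshold 5000 in
theorem full_char {j : ℕ} (h : FULL.testBit j = true) : ∃ p : ℕ × ℕ, p.1 < 32 ∧ p.2 < 32 ∧
    j = ix 0 p.1 p.2 := by
  have hj : j < 4192 := by
    by_contra hcon
    rw [Nat.testBit_lt_two_pow (lt_of_lt_of_le full_lt (Nat.pow_le_pow_right (by norm_num)
      (not_lt.1 hcon)))] at h
    exact absurd h (by decide)
  obtain ⟨h1, h2, h3⟩ := full_key j hj h
  refine ⟨((j - 2144) % 64, (j - 2144) / 64), h2, h3, ?_⟩
  simp only [ix]
  omega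

theorem full_ix : ∀ y < 32, ∀ x < 32, FULL.testBit (ix 0 x y) = true := by
  decide +kernel

/-- The filler has only low bits. -/
theorem low_bit {J : ℕ} (hJ : J < 2 ^ 64) {j : ℕ} (hj : 64 ≤ j) : J.testBit j = false :=
  Nat.testBit_lt_two_pow (lt_of_lt_of_le hJ (Nat.pow_le_pow_right (by norm_num) hj))

theorem ix_ge (h x y : ℕ) : 2144 ≤ ix h x y := by
  unfold ix; omega

/-- The invariant of the table. -/
def PatOK (v : ℕ) : Prop := HasCopy (cs 0 v) ∨ GoodE (cs 0 v) (cs 1 v)

theorem opt_sound {t : Tr} {J w M C I Z : ℕ} {k : ℕ → ℕ → ℕ → ℕ → Bool} (ht : t.All PatOK)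
    (hJ : J < 2 ^ 64) (h : opt t J w M C I Z k = true) :
    ∃ (r : Cell × Finset Cell × Finset Cell) (M' C' I' Z' : ℕ), RecOK r ∧
      r.2.1 ⊆ insert r.1 (cs 0 M') ∧ cs 0 M ⊆ cs 0 M' ∧ r.1 ∈ cs 0 Z' ∧ cs 0 Z ⊆ cs 0 Z' ∧
      r.2.2 ⊆ cs 0 C' ∧ cs 0 C ⊆ cs 0 C' ∧ (∀ c ∈ cs 0 I, c ∈ r.2.2 → c ∈ cs 0 I') ∧
      k M' C' I' Z' = true := by
  unfold opt at h
  rw [strict_eq] at h
  have hv := Tr.get_all ht (Nat.shiftRight w 26)
  generalize t.get (Nat.shiftRight w 26) = v at h hv
  cases hv0 : Nat.beq v 0 with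
  | true => rw [hv0] at h; exact absurd h (by simp)
  | false =>
  rw [hv0, cond_false, strict_eq, strict_eq, strict_eq, strict_eq, strict_eq] at h
  have hv : PatOK v := by
    rcases hv with hv | hv
    · subst hv
      simp at hv0
    · exact hv
  set g := Nat.land (Nat.shiftRight w 11) 7 with hg
  set a := Nat.land (Nat.shiftRight w 14) 4095 with ha
  set N := orient g v with hN
  set mi := Nat.add 2144 (Nat.land w 2047) with hmi
  set m := Nat.lor J (Nat.shiftLeft 1 mi) with hm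
  set r1 := Nat.lor J (Nat.shiftRight (Nat.shiftLeft (Nat.land N FULL) a) 2080) with hr1
  set D := Nat.lor m
    (Nat.shiftRight (Nat.shiftLeft (Nat.land (Nat.shiftRight N 2048) FULL) a) 2080) with hD
  cases hchk : Nat.beq (Nat.lor J (Nat.land (Nat.lor r1 D) FULL)) (Nat.lor r1 D) with
  | false => rw [hchk] at h; exact absurd h (by simp)
  | true =>
  rw [hchk, cond_true, strict_eq, strict_eq, strict_eq, strict_eq] at h
  have hchk := Nat.eq_of_beq_eq_true hchk
  -- bits of `r1` and `D` above 64 are in the box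
  have hbox : ∀ j, 64 ≤ j → (r1.testBit j = true ∨ D.testBit j = true) →
      FULL.testBit j = true := by
    intro j hj hb
    have e := congrArg (fun n => Nat.testBit n j) hchk
    simp only [tb_lor, tb_land, low_bit hJ hj, Bool.false_or] at e
    rcases hb with hb | hb <;> simp [hb] at e <;> exact e
  have hmiD : D.testBit mi = true := by
    rw [hD, tb_lor, hm, tb_lor, tb_shl]
    simp
  have hmi2144 : 2144 ≤ mi := by
    rw [hmi]; exact Nat.le_add_right _ _
  obtain ⟨pm, hpm1, hpm2, hpm⟩ := full_char (hbox mi (by omega) (Or.inr hmiD))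
  -- moved bits
  have hmove : ∀ (X : ℕ) (p : ℕ × ℕ), X.testBit (ix 0 p.1 p.2) = true → p.1 < 32 → p.2 < 32 →
      (∀ j, 64 ≤ j → (Nat.shiftRight (Nat.shiftLeft (Nat.land X FULL) a) 2080).testBit j = true →
        FULL.testBit j = true) →
      ∃ q : ℕ × ℕ, q.1 < 32 ∧ q.2 < 32 ∧
        (Nat.shiftRight (Nat.shiftLeft (Nat.land X FULL) a) 2080).testBit (ix 0 q.1 q.2) = true ∧
        cel q = ((cel p).1 + (((a % 64 : ℕ) : ℤ) - 32), (cel p).2 + (((a / 64 : ℕ) : ℤ) - 32)) := by
    intro X p hX hp1 hp2 hall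
    have hj : (Nat.shiftRight (Nat.shiftLeft (Nat.land X FULL) a) 2080).testBit
        (ix 0 p.1 p.2 + a - 2080) = true := by
      rw [tb_shr, tb_shl, tb_land]
      have e : 2080 + (ix 0 p.1 p.2 + a - 2080) - a = ix 0 p.1 p.2 := by
        have := ix_ge 0 p.1 p.2
        omega
      rw [e, hX, full_ix _ hp2 _ hp1]
      have := ix_ge 0 p.1 p.2
      simp only [Bool.and_self, Bool.and_true, decide_eq_true_eq]
      omega
    have h64 : 64 ≤ ix 0 p.1 p.2 + a - 2080 := by
      have := ix_ge 0 p.1 p.2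
      omega
    obtain ⟨q, hq1, hq2, hq⟩ := full_char (hall _ h64 hj)
    refine ⟨q, hq1, hq2, by rw [← hq]; exact hj, ?_⟩
    have := ix_ge 0 p.1 p.2
    simp only [ix] at hq this
    simp only [cel, Prod.mk.injEq]
    constructor <;> omega
  have hDset : insert (cel pm) ((cs 1 v).image (TT g a)) ⊆ cs 0 D := by
    intro c hc
    rcases mem_insert.1 hc with rfl | hc
    · exact cel_mem_cs.2 ⟨by rw [← hpm]; exact hmiD, hpm1, hpm2⟩
    · obtain ⟨c0, hc0, rfl⟩ := mem_image.1 hc
      obtain ⟨p, hp, rfl⟩ := mem_cs.1 hc0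
      have ho := orient_spec (g := g) (by norm_num) hp
      obtain ⟨q, hq1, hq2, hq, hcq⟩ := hmove (Nat.shiftRight N 2048) (oc g p) (by
          rw [tb_shr]
          have := ho.1
          unfold ix at this ⊢
          rw [← this]
          congr 1
          omega) ho.2.1 ho.2.2 (fun j hj hb =>
        hbox j hj (Or.inr (by rw [hD, tb_lor, hb, Bool.or_true])))
      rw [TT_cel g a hp.2.1 hp.2.2, ← hcq]
      exact cel_mem_cs.2 ⟨by rw [hD, tb_lor, hq, Bool.or_true], hq1, hq2⟩
  refine ⟨(cel pm, (cs 0 v).image (TT g a), insert (cel pm) ((cs 1 v).image (TT g a))),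
    _, _, _, _, ?_, ?_, ?_, ?_, ?_, ?_, ?_, ?_, h⟩
  · refine ⟨mem_insert_self _ _, ?_⟩
    rcases hv with hv | hv
    · exact Or.inl (hv.image (isSymm_TT g a))
    · exact Or.inr ⟨_, subset_insert _ _, hv.image (isSymm_TT g a)⟩
  · intro c hc
    obtain ⟨c0, hc0, rfl⟩ := mem_image.1 hc
    obtain ⟨p, hp, rfl⟩ := mem_cs.1 hc0
    have ho := orient_spec (g := g) (by norm_num) hp
    obtain ⟨q, hq1, hq2, hq, hcq⟩ := hmove N (oc g p) ho.1 ho.2.1 ho.2.2 (fun j hj hb =>
      hbox j hj (Or.inl (by rw [hr1, tb_lor, hb, Bool.or_true])))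
    rw [TT_cel g a hp.2.1 hp.2.2, ← hcq]
    by_cases hqm : q = pm
    · rw [hqm]
      exact mem_insert_self _ _
    · refine mem_insert_of_mem (cel_mem_cs.2 ⟨?_, hq1, hq2⟩)
      have e1 : m.testBit (ix 0 q.1 q.2) = false := by
        rw [hm, tb_lor, low_bit hJ (le_trans (by norm_num) (ix_ge 0 q.1 q.2)), tb_shl,
          Bool.false_or]
        by_cases hle : mi ≤ ix 0 q.1 q.2
        · have : ix 0 q.1 q.2 - mi ≠ 0 := by
            intro h0
            apply hqm
            have : ix 0 q.1 q.2 = ix 0 pm.1 pm.2 := by omega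
            simp only [ix] at this
            ext <;> omega
          rw [Nat.testBit_one_eq_true_iff_self_eq_zero.not.2 ?_ |> Bool.eq_false_iff.2]
          · simp
          · exact this
        · simp [hle]
      rw [tb_lor, tb_lor, tb_land, tb_xor, tb_land, e1, full_ix _ hq2 _ hq1, hr1, tb_lor, hq]
      simp
  · intro c hc
    obtain ⟨p, hp, rfl⟩ := mem_cs.1 hc
    refine cel_mem_cs.2 ⟨?_, hp.2⟩
    rw [tb_lor, hp.1, Bool.true_or]
  · refine cel_mem_cs.2 ⟨?_, hpm1, hpm2⟩
    rw [tb_lor, ← hpm, hm, tb_lor, tb_shl]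
    simp
  · intro c hc
    obtain ⟨p, hp, rfl⟩ := mem_cs.1 hc
    refine cel_mem_cs.2 ⟨?_, hp.2⟩
    rw [tb_lor, hp.1, Bool.true_or]
  · intro c hc
    obtain ⟨p, hp, rfl⟩ := mem_cs.1 (hDset hc)
    refine cel_mem_cs.2 ⟨?_, hp.2⟩
    rw [tb_lor, hp.1, Bool.or_true]
  · intro c hc
    obtain ⟨p, hp, rfl⟩ := mem_cs.1 hc
    refine cel_mem_cs.2 ⟨?_, hp.2⟩
    rw [tb_lor, hp.1, Bool.true_or]
  · intro c hc hc2
    obtain ⟨p, hp, rfl⟩ := mem_cs.1 hc
    have hp2 := cel_mem_cs.1 (hDset hc2)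
    refine cel_mem_cs.2 ⟨?_, hp.2⟩
    rw [tb_lor, tb_land, hp.1, hp2.1]
    simp

/-- The list of records covers the accumulators. -/
structure Inv (L : List (Cell × Finset Cell × Finset Cell)) (M C I Z : ℕ) : Prop where
  ok : ∀ r ∈ L, RecOK r
  hM : ∀ r ∈ L, r.2.1 ⊆ insert r.1 (cs 0 M)
  hZ : ∀ r ∈ L, r.1 ∈ cs 0 Z
  hC : ∀ r ∈ L, r.2.2 ⊆ cs 0 C
  hI : ∀ c ∈ cs 0 FULL, (∀ r ∈ L, c ∈ r.2.2) → c ∈ cs 0 I

theorem Inv.nil : Inv [] 0 0 FULL 0 where
  ok _ hr := absurd hr List.not_mem_nil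
  hM _ hr := absurd hr List.not_mem_nil
  hZ _ hr := absurd hr List.not_mem_nil
  hC _ hr := absurd hr List.not_mem_nil
  hI _ hc _ := hc

theorem opt_inv {t : Tr} {J w M C I Z : ℕ} {k : ℕ → ℕ → ℕ → ℕ → Bool} (ht : t.All PatOK)
    (hJ : J < 2 ^ 64) (h : opt t J w M C I Z k = true)
    {L : List (Cell × Finset Cell × Finset Cell)} (hL : Inv L M C I Z) :
    ∃ L' M' C' I' Z', L' ≠ [] ∧ Inv L' M' C' I' Z' ∧ k M' C' I' Z' = true := by
  obtain ⟨r, M', C', I', Z', h1, h2, h3, h4, h5, h6, h7, h8, h9⟩ := opt_sound ht hJ h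
  refine ⟨r :: L, M', C', I', Z', List.cons_ne_nil _ _, ?_, h9⟩
  constructor
  · intro s hs
    rcases List.mem_cons.1 hs with rfl | hs
    · exact h1
    · exact hL.ok s hs
  · intro s hs
    rcases List.mem_cons.1 hs with rfl | hs
    · exact h2
    · exact (hL.hM s hs).trans (insert_subset_insert _ h3)
  · intro s hs
    rcases List.mem_cons.1 hs with rfl | hs
    · exact h4
    · exact h5 (hL.hZ s hs)
  · intro s hs
    rcases List.mem_cons.1 hs with rfl | hs
    · exact h6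
    · exact (hL.hC s hs).trans h7
  · intro c hc hall
    exact h8 c (hL.hI c hc fun s hs => hall s (List.mem_cons_of_mem r hs))
      (hall r List.mem_cons_self)

theorem mem_full_of {h v : ℕ} {c : Cell} (hc : c ∈ cs h v) : c ∈ cs 0 FULL := by
  obtain ⟨p, hp, rfl⟩ := mem_cs.1 hc
  exact cel_mem_cs.2 ⟨full_ix _ hp.2.2 _ hp.2.1, hp.2⟩

theorem compl_bit {J M : ℕ} (hJ : J < 2 ^ 64) {p : ℕ × ℕ} (h1 : p.1 < 32) (h2 : p.2 < 32) :
    (Nat.lor J (Nat.xor FULL (Nat.land M FULL))).testBit (ix 0 p.1 p.2) =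
      !(M.testBit (ix 0 p.1 p.2)) := by
  rw [tb_lor, tb_xor, tb_land, full_ix _ h2 _ h1,
    low_bit hJ (le_trans (by norm_num) (ix_ge 0 p.1 p.2))]
  cases M.testBit (ix 0 p.1 p.2) <;> rfl

theorem zero_bit {X : ℕ} (h : Nat.beq X 0 = true) (j : ℕ) : X.testBit j = false := by
  rw [Nat.eq_of_beq_eq_true h]
  exact Nat.zero_testBit j

theorem fin_sound {J M C I Z : ℕ} {k : ℕ → Bool} (hJ : J < 2 ^ 64)
    {L : List (Cell × Finset Cell × Finset Cell)} (hne : L ≠ []) (hL : Inv L M C I Z)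
    (h : fin J M C I Z k = true) : ∃ v, PatOK v ∧ k v = true := by
  unfold fin at h
  rw [strict_eq] at h
  set M' := Nat.lor J (Nat.xor FULL (Nat.land M FULL)) with hM'
  cases hz : Nat.beq (Nat.land (Nat.land Z M) FULL) 0 with
  | false => rw [hz] at h; exact absurd h (by simp)
  | true =>
  rw [hz, cond_true] at h
  cases hi : Nat.beq (Nat.land (Nat.land I M') FULL) 0 with
  | false => rw [hi] at h; exact absurd h (by simp)
  | true =>
  rw [hi, cond_true, strict_eq] at h
  refine ⟨_, Or.inr ?_, h⟩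
  set v := Nat.lor J (Nat.lor (Nat.land M FULL)
    (Nat.shiftLeft (Nat.land (Nat.land C M') FULL) 2048)) with hv
  have e0 : cs 0 v = cs 0 M := by
    ext c
    rw [mem_cs, mem_cs]
    refine exists_congr fun p => and_congr_left fun _ => and_congr_left fun hp => ?_
    rw [hv, tb_lor, tb_lor, tb_land, tb_shl, full_ix _ hp.2 _ hp.1,
      low_bit hJ (le_trans (by norm_num) (ix_ge 0 p.1 p.2)), tb_land]
    have : FULL.testBit (ix 0 p.1 p.2 - 2048) = false := by
      rw [Bool.eq_false_iff]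
      intro hf
      obtain ⟨q, hq1, hq2, hq⟩ := full_char hf
      have := ix_ge 0 q.1 q.2
      simp only [ix] at hq this
      omega
    rw [this]
    simp
  have e1 : ∀ c, c ∈ cs 0 C → c ∉ cs 0 M → c ∈ cs 1 v := by
    intro c hc hcM
    obtain ⟨p, hp, rfl⟩ := mem_cs.1 hc
    refine cel_mem_cs.2 ⟨?_, hp.2⟩
    have hb : M'.testBit (ix 0 p.1 p.2) = true := by
      rw [hM', compl_bit hJ hp.2.1 hp.2.2]
      cases hMb : M.testBit (ix 0 p.1 p.2) with
      | false => rfl
      | true => exact absurd (cel_mem_cs.2 ⟨hMb, hp.2⟩) hcM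
    have e : ix 1 p.1 p.2 - 2048 = ix 0 p.1 p.2 := by
      simp only [ix]; omega
    have e' : 2048 ≤ ix 1 p.1 p.2 := by
      simp only [ix]; omega
    rw [hv, tb_lor, tb_lor, tb_shl, tb_land, tb_land, tb_land, e, hp.1, hb,
      full_ix _ hp.2.2 _ hp.2.1]
    simp [e']
  rw [e0]
  refine finish hne hL.ok hL.hM ?_ ?_ ?_
  · intro r hr hrM
    obtain ⟨p, hp, e⟩ := mem_cs.1 (hL.hZ r hr)
    rw [← e, cel_mem_cs] at hrM
    have := zero_bit hz (ix 0 p.1 p.2)
    rw [tb_land, tb_land, hp.1, hrM.1, full_ix _ hp.2.2 _ hp.2.1] at this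
    exact absurd this (by simp)
  · intro r hr c hc hcM
    exact e1 c (hL.hC r hr hc) hcM
  · intro b hb
    by_contra hcon
    push Not at hcon
    obtain ⟨r, hr⟩ := List.exists_mem_of_ne_nil L hne
    have hbox := mem_full_of (hL.hC r hr (hcon r hr))
    obtain ⟨p, hp, rfl⟩ := mem_cs.1 (hL.hI b hbox hcon)
    have := zero_bit hi (ix 0 p.1 p.2)
    have hMb : M.testBit (ix 0 p.1 p.2) = false := by
      cases hMb : M.testBit (ix 0 p.1 p.2) with
      | false => rfl
      | true => exact absurd (cel_mem_cs.2 ⟨hMb, hp.2⟩) hb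
    rw [tb_land, tb_land, hp.1, hM', compl_bit hJ hp.2.1 hp.2.2, hMb,
      full_ix _ hp.2.2 _ hp.2.1] at this
    exact absurd this (by simp)

theorem land_low_lt (s : ℕ) : Nat.land s LOW < 2 ^ 64 :=
  Nat.and_lt_two_pow s (by decide)

theorem go_succ (n s : ℕ) (t : Tr) (i M C I Z : ℕ) (k : Tr → ℕ → Bool) :
    go (n + 1) s t i M C I Z k =
      strict (Nat.land s 281474976710655) fun w =>
      cond (Nat.beq w 0) (k t i)
        (strict (Nat.land s LOW) fun J =>
        opt t J (Nat.shiftRight w 1) M C I Z fun M' C' I' Z' =>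
          strict (Nat.shiftRight s 48) fun s' =>
          cond (Nat.beq (Nat.land w 1) 0) (go n s' t i M' C' I' Z' k)
            (fin J M' C' I' Z' fun v =>
              strict (Nat.succ i) fun i' =>
                Tr.ins t i v fun t' => go n s' t' i' 0 0 FULL 0 k)) := rfl

theorem go_sound (n : ℕ) : ∀ {s : ℕ} {t : Tr} {i M C I Z : ℕ} {k : Tr → ℕ → Bool}
    {L : List (Cell × Finset Cell × Finset Cell)}, t.All PatOK → Inv L M C I Z →
    go n s t i M C I Z k = true → ∃ t' i', t'.All PatOK ∧ k t' i' = true := by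
  induction n with
  | zero => intro s t i M C I Z k L _ _ h; exact absurd h (by simp [go])
  | succ n ih =>
    intro s t i M C I Z k L ht hL h
    rw [go_succ, strict_eq] at h
    cases hw : Nat.beq (Nat.land s 281474976710655) 0 with
    | true =>
      rw [hw] at h
      exact ⟨t, i, ht, h⟩
    | false =>
      rw [hw, cond_false, strict_eq] at h
      obtain ⟨L', M', C', I', Z', hne, hL', h⟩ := opt_inv ht (land_low_lt s) h hL
      simp only [strict_eq] at h
      cases hf : Nat.beq (Nat.land (Nat.land s 281474976710655) 1) 0 with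
      | true =>
        rw [hf] at h
        exact ih ht hL' h
      | false =>
        rw [hf, cond_false] at h
        obtain ⟨v, hv, h⟩ := fin_sound (land_low_lt s) hne hL' h
        obtain ⟨t', ht', h⟩ := Tr.ins_sound ht hv h
        exact ih ht' Inv.nil h

theorem goR_succ (n s : ℕ) (t : Tr) (M C I Z : ℕ) (k : ℕ → ℕ → ℕ → ℕ → Bool) :
    goR (n + 1) s t M C I Z k =
      strict (Nat.land s 281474976710655) fun w =>
      cond (Nat.beq w 0) (k M C I Z)
        (strict (Nat.land s LOW) fun J =>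
        opt t J (Nat.shiftRight w 1) M C I Z fun M' C' I' Z' =>
          strict (Nat.shiftRight s 48) fun s' => goR n s' t M' C' I' Z' k) := rfl

theorem goR_sound (n : ℕ) : ∀ {s : ℕ} {t : Tr} {M C I Z : ℕ} {k : ℕ → ℕ → ℕ → ℕ → Bool}
    {L : List (Cell × Finset Cell × Finset Cell)}, t.All PatOK → Inv L M C I Z →
    goR n s t M C I Z k = true → ∃ L' M' C' I' Z', Inv L' M' C' I' Z' ∧
      k M' C' I' Z' = true := by
  induction n with
  | zero => intro s t M C I Z k L _ _ h; exact absurd h (by simp [goR])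
  | succ n ih =>
    intro s t M C I Z k L ht hL h
    rw [goR_succ, strict_eq] at h
    cases hw : Nat.beq (Nat.land s 281474976710655) 0 with
    | true =>
      rw [hw] at h
      exact ⟨L, M, C, I, Z, hL, h⟩
    | false =>
      rw [hw, cond_false, strict_eq] at h
      obtain ⟨L', M', C', I', Z', hne, hL', h⟩ := opt_inv ht (land_low_lt s) h hL
      simp only [strict_eq] at h
      exact ih ht hL' h

/-- The last test: Maker owns the cell `(16, 16)` and the carriers only share cells of `A`. -/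
noncomputable def last (A M _C I Z : ℕ) : Bool :=
  cond (Nat.beq (Nat.land M FULL) (Nat.shiftLeft 1 3184))
    (cond (Nat.beq (Nat.land (Nat.land Z M) FULL) 0)
      (cond (Nat.beq (Nat.land (Nat.land I FULL) A) (Nat.land I FULL)) true false)
      false)
    false

theorem last_sound {A M C I Z : ℕ} {L : List (Cell × Finset Cell × Finset Cell)}
    (hL : Inv L M C I Z) (h : last A M C I Z = true) (hA : ((0 : ℤ), (0 : ℤ)) ∉ cs 0 A) :
    ∃ K, ∀ b : Cell, b ≠ (16, 16) → b ∉ cs 0 A → WinsIn K {(16, 16)} {b} := by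
  unfold last at h
  cases h1 : Nat.beq (Nat.land M FULL) (Nat.shiftLeft 1 3184) with
  | false => rw [h1] at h; exact absurd h (by simp)
  | true =>
  rw [h1, cond_true] at h
  cases h2 : Nat.beq (Nat.land (Nat.land Z M) FULL) 0 with
  | false => rw [h2] at h; exact absurd h (by simp)
  | true =>
  rw [h2, cond_true] at h
  cases h3 : Nat.beq (Nat.land (Nat.land I FULL) A) (Nat.land I FULL) with
  | false => rw [h3] at h; exact absurd h (by simp)
  | true =>
  have h3 := Nat.eq_of_beq_eq_true h3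
  have h1 := Nat.eq_of_beq_eq_true h1
  have hIA : ∀ c ∈ cs 0 I, c ∈ cs 0 A := by
    intro c hc
    obtain ⟨p, hp, rfl⟩ := mem_cs.1 hc
    refine cel_mem_cs.2 ⟨?_, hp.2⟩
    have e := congrArg (fun n => Nat.testBit n (ix 0 p.1 p.2)) h3
    simp only [tb_land, hp.1, full_ix _ hp.2.2 _ hp.2.1, Bool.and_true, Bool.true_and] at e
    exact e
  have hM : cs 0 M = {(16, 16)} := by
    ext c
    rw [mem_singleton]
    constructor
    · intro hc
      obtain ⟨p, hp, rfl⟩ := mem_cs.1 hc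
      have e := congrArg (fun n => Nat.testBit n (ix 0 p.1 p.2)) h1
      simp only [tb_land, hp.1, full_ix _ hp.2.2 _ hp.2.1, Bool.and_true, tb_shl] at e
      have e := e.symm
      rw [Bool.and_eq_true, decide_eq_true_eq, Nat.testBit_one_eq_true_iff_self_eq_zero] at e
      have e2 : ix 0 p.1 p.2 = 3184 := by omega
      have := hp.2.1
      have := hp.2.2
      simp only [ix] at e2
      have h1 : p.1 = 16 := by omega
      have h2 : p.2 = 16 := by omega
      simp [cel, h1, h2]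
    · rintro rfl
      have e := congrArg (fun n => Nat.testBit n (ix 0 16 16)) h1
      simp only [tb_land, full_ix 16 (by norm_num) 16 (by norm_num), Bool.and_true, tb_shl] at e
      have e3 : cel (16, 16) = ((16 : ℤ), (16 : ℤ)) := by simp [cel]
      rw [← e3]
      refine cel_mem_cs.2 ⟨?_, by norm_num, by norm_num⟩
      rw [e]
      decide
  rw [← hM]
  have hb8 : ∀ b : Cell, b ≠ (16, 16) ↔ b ∉ cs 0 M := by
    intro b
    rw [hM, mem_singleton]
  simp only [hb8]
  have hne : L ≠ [] := by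
    rintro rfl
    apply hA
    apply hIA
    apply hL.hI
    · have e3 : cel (0, 0) = ((0 : ℤ), (0 : ℤ)) := by simp [cel]
      rw [← e3]
      exact cel_mem_cs.2 ⟨full_ix 0 (by norm_num) 0 (by norm_num), by norm_num, by norm_num⟩
    · intro r hr
      exact absurd hr List.not_mem_nil
  refine finishRoot hL.ok hL.hM ?_ ?_
  · intro r hr hrM
    obtain ⟨p, hp, e⟩ := mem_cs.1 (hL.hZ r hr)
    rw [← e, cel_mem_cs] at hrM
    have := zero_bit h2 (ix 0 p.1 p.2)
    rw [tb_land, tb_land, hp.1, hrM.1, full_ix _ hp.2.2 _ hp.2.1] at this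
    exact absurd this (by simp)
  · intro b _ hb
    by_contra hcon
    push Not at hcon
    obtain ⟨r, hr⟩ := List.exists_mem_of_ne_nil L hne
    exact hb (hIA b (hL.hI b (mem_full_of (hL.hC r hr (hcon r hr))) hcon))

end Vale.Agent.P062W
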